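import Vale.Agent.P252.Final

namespace Vale.Agent.Results.P252.Entire
open Vale.Agent.P252
open scoped ContDiff

theorem result : ∀ n : ℕ, 10 ≤ n → ∃ u : (Fin n → ℝ) → ℝ, ContDiff ℝ ∞ u ∧
    (∀ p, (Hess u p).PosDef) ∧ AffineMaximal u ∧ ¬ IsQuadratic u := main

end Vale.Agent.Results.P252.Entire
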